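import Mathlib

namespace Vale.Agent.Lib.P176.F

open IsLocalRing

universe u w

section

variable (Z : Type w) (R : Type u) [CommRing Z] [IsLocalRing Z] [Ring R] [Algebra Z R]

/-- `m M`, the `R`-submodule generated by the products of the maximal ideal of `Z` with `M`. -/
def mSub (M : Type u) [AddCommGroup M] [Module R M] : Submodule R M :=
  Submodule.span R {x | ∃ (z : Z) (y : M), z ∈ maximalIdeal Z ∧ x = algebraMap Z R z • y}

variable {R}

/-- `φ : R → S` is the quotient map of `R` modulo the ideal generated by the maximal ideal of the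
central subring `Z`. -/
class IsRedMap {S : Type u} [Ring S] (φ : R →+* S) : Prop where
  surj : Function.Surjective φ
  ker : ∀ r, φ r = 0 ↔ r ∈ mSub Z R R

variable {S : Type u} [Ring S] (φ : R →+* S)

/-- The reduction `M / m M`, as a module over `S`. -/
def Red (_φ : R →+* S) (M : Type u) [AddCommGroup M] [Module R M] : Type u := M ⧸ mSub Z R M

variable (M : Type u) [AddCommGroup M] [Module R M]

noncomputable instance : AddCommGroup (Red Z φ M) :=
  inferInstanceAs (AddCommGroup (M ⧸ mSub Z R M))

noncomputable instance : Module R (Red Z φ M) :=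
  inferInstanceAs (Module R (M ⧸ mSub Z R M))

/-- The quotient map to the reduction. -/
noncomputable def mk : M →ₗ[R] Red Z φ M := (mSub Z R M).mkQ

variable {M}

theorem mk_surjective : Function.Surjective (mk Z φ M) := (mSub Z R M).mkQ_surjective

theorem mk_eq_zero_iff (x : M) : mk Z φ M x = 0 ↔ x ∈ mSub Z R M :=
  Submodule.Quotient.mk_eq_zero _

/-- Elements of `mSub Z R` kill `M / m M`. -/
theorem smul_red_eq_zero {r : R} (hr : r ∈ mSub Z R R) (x : Red Z φ M) : r • x = 0 := by
  obtain ⟨y, rfl⟩ := mk_surjective Z φ x
  rw [← map_smul, mk_eq_zero_iff]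
  induction hr using Submodule.span_induction with
  | mem a ha =>
    obtain ⟨z, b, hz, rfl⟩ := ha
    apply Submodule.subset_span
    refine ⟨z, b • y, hz, ?_⟩
    simp [mul_smul]
  | zero => simp
  | add a b _ _ ha hb => simpa [add_smul] using add_mem ha hb
  | smul a b _ hb =>
    have := (mSub Z R M).smul_mem a hb
    simpa [mul_smul] using this

variable [IsRedMap Z φ]

/-- The `S`-module structure on the reduction: `φ r` acts as `r`. -/
noncomputable instance : Module S (Red Z φ M) :=
  have surj : Function.Surjective φ := IsRedMap.surj (Z := Z) (φ := φ)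
  have key : ∀ (r r' : R), φ r = φ r' → ∀ x : Red Z φ M, r • x = r' • x := by
    intro r r' h x
    have h0 : φ (r - r') = 0 := by rw [map_sub, h, sub_self]
    have h1 := smul_red_eq_zero Z φ ((IsRedMap.ker (Z := Z) (φ := φ) _).1 h0) x
    rw [sub_smul, sub_eq_zero] at h1
    exact h1
  { smul := fun s x => (Function.surjInv surj s) • x
    one_smul := fun x => by
      change (Function.surjInv surj 1) • x = x
      rw [key (Function.surjInv surj 1) 1 (by rw [Function.surjInv_eq surj, map_one]) x, one_smul]
    mul_smul := fun s t x => by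
      change (Function.surjInv surj (s * t)) • x
        = (Function.surjInv surj s) • (Function.surjInv surj t) • x
      rw [← mul_smul]
      exact key _ _ (by rw [map_mul, Function.surjInv_eq surj, Function.surjInv_eq surj, Function.surjInv_eq surj]) x
    smul_zero := fun s => by
      change (Function.surjInv surj s) • (0 : Red Z φ M) = 0
      exact smul_zero _
    smul_add := fun s x y => by
      change (Function.surjInv surj s) • (x + y)
        = (Function.surjInv surj s) • x + (Function.surjInv surj s) • y
      exact smul_add _ _ _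
    add_smul := fun s t x => by
      change (Function.surjInv surj (s + t)) • x
        = (Function.surjInv surj s) • x + (Function.surjInv surj t) • x
      rw [← add_smul]
      exact key _ _ (by rw [map_add, Function.surjInv_eq surj, Function.surjInv_eq surj, Function.surjInv_eq surj]) x
    zero_smul := fun x => by
      change (Function.surjInv surj 0) • x = 0
      rw [key (Function.surjInv surj 0) 0 (by rw [Function.surjInv_eq surj, map_zero]) x, zero_smul] }

theorem phi_smul (r : R) (x : Red Z φ M) : φ r • x = r • x := by
  change (Function.surjInv (IsRedMap.surj (Z := Z) (φ := φ)) (φ r)) • x = r • x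
  have h0 : φ (Function.surjInv (IsRedMap.surj (Z := Z) (φ := φ)) (φ r) - r) = 0 := by
    rw [map_sub, Function.surjInv_eq (IsRedMap.surj (Z := Z) (φ := φ)), sub_self]
  have h1 := smul_red_eq_zero Z φ ((IsRedMap.ker (Z := Z) (φ := φ) _).1 h0) x
  rw [sub_smul, sub_eq_zero] at h1
  exact h1

end

section

variable (Z : Type w) {R : Type u} [CommRing Z] [IsLocalRing Z] [Ring R] [Algebra Z R]
  {S : Type u} [Ring S] (φ : R →+* S) [IsRedMap Z φ]
  {M N : Type u} [AddCommGroup M] [Module R M] [AddCommGroup N] [Module R N]

/-- The map induced on reductions by an `R`-linear map, as an `R`-linear map. -/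
noncomputable def redMapR (f : M →ₗ[R] N) : Red Z φ M →ₗ[R] Red Z φ N :=
  (mSub Z R M).mapQ (mSub Z R N) f (by
    rw [mSub, Submodule.span_le]
    rintro x ⟨z, y, hz, rfl⟩
    simp only [SetLike.mem_coe, Submodule.mem_comap, map_smul]
    exact Submodule.subset_span ⟨z, f y, hz, rfl⟩)

/-- The map induced on reductions by an `R`-linear map. -/
noncomputable def redMap (f : M →ₗ[R] N) : Red Z φ M →ₗ[S] Red Z φ N :=
  { toFun := redMapR Z φ f
    map_add' := fun x y => map_add _ x y
    map_smul' := fun s x => by
      obtain ⟨r, rfl⟩ := (IsRedMap.surj (Z := Z) (φ := φ)) s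
      rw [phi_smul, RingHom.id_apply, phi_smul]
      exact map_smul _ r x }

theorem redMap_mk (f : M →ₗ[R] N) (x : M) : redMap Z φ f (mk Z φ M x) = mk Z φ N (f x) := rfl

theorem redMap_comp {P : Type u} [AddCommGroup P] [Module R P] (f : M →ₗ[R] N) (g : N →ₗ[R] P) :
    redMap Z φ (g ∘ₗ f) = redMap Z φ g ∘ₗ redMap Z φ f := by
  ext x
  obtain ⟨y, rfl⟩ := mk_surjective Z φ x
  rfl

theorem redMap_id : redMap Z φ (LinearMap.id : M →ₗ[R] M) = LinearMap.id := by
  ext x
  obtain ⟨y, rfl⟩ := mk_surjective Z φ x
  rfl

end

end Vale.Agent.Lib.P176.F
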