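import Vale.Agent.Lib.P176.F.Defs

namespace Vale.Agent.Lib.P176.F

open IsLocalRing

universe u w

section

variable {Z : Type w} [CommRing Z] [IsLocalRing Z] [IsArtinianRing Z]

/-- A nonzero element killed by the maximal ideal. -/
theorem exists_socle (Z : Type w) [CommRing Z] [IsLocalRing Z] [IsArtinianRing Z] :
    ∃ s : Z, s ≠ 0 ∧ ∀ z ∈ maximalIdeal Z, z * s = 0 := by
  classical
  have hnil : IsNilpotent (maximalIdeal Z) := by
    have h := IsArtinianRing.isNilpotent_jacobson_bot (R := Z)
    rwa [IsLocalRing.jacobson_eq_maximalIdeal _ bot_ne_top] at h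
  have hex : ∃ n, maximalIdeal Z ^ n = ⊥ := hnil
  have hspec := Nat.find_spec hex
  rcases hn : Nat.find hex with _ | k
  · rw [hn, pow_zero] at hspec
    exact absurd hspec (by simp)
  · have hk : maximalIdeal Z ^ k ≠ ⊥ := Nat.find_min hex (by omega)
    obtain ⟨s, hsm, hs0⟩ := Submodule.exists_mem_ne_zero_of_ne_bot hk
    refine ⟨s, hs0, fun z hz => ?_⟩
    have hmem : z * s ∈ maximalIdeal Z ^ (k + 1) := by
      rw [pow_succ']
      exact Ideal.mul_mem_mul hz hsm
    rw [hn] at hspec
    rw [hspec] at hmem
    simpa using hmem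

/-- Over an artinian local ring, the cokernel of an injective map between finite free modules is
free: the socle forces injectivity modulo the maximal ideal. -/
theorem free_quot {K F M : Type*} [AddCommGroup K] [AddCommGroup F] [AddCommGroup M]
    [Module Z K] [Module Z F] [Module Z M] [Module.Free Z K] [Module.Finite Z K]
    [Module.Free Z F] [Module.Finite Z F] (i : K →ₗ[Z] F) (g : F →ₗ[Z] M)
    (hi : Function.Injective i) (hg : Function.Surjective g) (hex : Function.Exact i g) :
    Module.Free Z M := by
  classical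
  obtain ⟨s, hs0, hs⟩ := exists_socle Z
  have hs' : ∀ z : Z, z * s = 0 → z ∈ maximalIdeal Z := by
    intro z hz
    by_contra h
    have hu : IsUnit z := by simpa [IsLocalRing.mem_maximalIdeal, mem_nonunits_iff] using h
    exact hs0 ((hu.mul_right_eq_zero).mp hz)
  have hkill : ∀ y ∈ (maximalIdeal Z) • (⊤ : Submodule Z F), s • y = 0 := by
    intro y hy
    refine Submodule.smul_induction_on hy ?_ ?_
    · intro z hz w _
      rw [smul_smul, mul_comm, hs z hz, zero_smul]
    · intro a b ha hb
      rw [smul_add, ha, hb, add_zero]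
  let bK := Module.Free.chooseBasis Z K
  have hmem : ∀ x : K, s • x = 0 → x ∈ (maximalIdeal Z) • (⊤ : Submodule Z K) := by
    intro x hx
    rw [← bK.sum_repr x]
    refine Submodule.sum_mem _ fun j _ => Submodule.smul_mem_smul ?_ Submodule.mem_top
    apply hs'
    have := congrArg (fun v => bK.repr v j) hx
    simpa [mul_comm] using this
  have hinj : Function.Injective (i.lTensor (ResidueField Z)) := by
    rw [injective_iff_map_eq_zero]
    intro t ht
    obtain ⟨x, rfl⟩ := TensorProduct.mk_surjective Z K (ResidueField Z)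
      IsLocalRing.residue_surjective t
    simp only [TensorProduct.mk_apply, LinearMap.lTensor_tmul] at ht
    have hiy : i x ∈ (maximalIdeal Z) • (⊤ : Submodule Z F) := by
      have h1 := congrArg (TensorProduct.quotTensorEquivQuotSMul F (maximalIdeal Z)) ht
      have h2 : (TensorProduct.quotTensorEquivQuotSMul F (maximalIdeal Z))
          ((1 : Z ⧸ maximalIdeal Z) ⊗ₜ[Z] (i x)) = Submodule.Quotient.mk (i x) := by
        have := TensorProduct.quotTensorEquivQuotSMul_mk_tmul (maximalIdeal Z) (1 : Z) (i x)
        simpa using this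
      have h3 := h2.symm.trans (h1.trans (LinearEquiv.map_zero _))
      exact (Submodule.Quotient.mk_eq_zero _).mp h3
    have hx0 : s • x = 0 := by
      apply hi
      rw [map_smul, map_zero]
      exact hkill _ hiy
    have hxm := hmem x hx0
    have h4 : (TensorProduct.quotTensorEquivQuotSMul K (maximalIdeal Z))
        ((1 : Z ⧸ maximalIdeal Z) ⊗ₜ[Z] x) = 0 := by
      have := TensorProduct.quotTensorEquivQuotSMul_mk_tmul (maximalIdeal Z) (1 : Z) x
      have h5 : (Submodule.Quotient.mk x : K ⧸ (maximalIdeal Z) • (⊤ : Submodule Z K)) = 0 :=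
        (Submodule.Quotient.mk_eq_zero _).mpr hxm
      simpa [h5] using this
    exact (LinearEquiv.map_eq_zero_iff _).mp h4
  exact Module.free_of_lTensor_residueField_injective i g hg hex hinj

end

section

variable {Z : Type w} {R : Type u} [CommRing Z] [IsLocalRing Z] [IsArtinianRing Z] [Ring R]
  [Algebra Z R]

/-- `mSub` is the `Z`-submodule `m M`. -/
theorem mem_mSub_iff {M : Type u} [AddCommGroup M] [Module R M] [Module Z M] [IsScalarTower Z R M]
    (x : M) : x ∈ mSub Z R M ↔ x ∈ (maximalIdeal Z) • (⊤ : Submodule Z M) := by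
  constructor
  · intro hx
    refine Submodule.span_induction ?_ ?_ ?_ ?_ hx
    · rintro _ ⟨z, y, hz, rfl⟩
      rw [algebraMap_smul]
      exact Submodule.smul_mem_smul hz Submodule.mem_top
    · exact Submodule.zero_mem _
    · intro u v _ _ hu hv
      exact Submodule.add_mem _ hu hv
    · intro r u _ hu
      refine Submodule.smul_induction_on hu ?_ ?_
      · intro z hz y _
        have e : r • z • y = z • r • y := by
          rw [← algebraMap_smul R z y, ← algebraMap_smul R z (r • y), smul_smul, smul_smul,
            Algebra.commutes]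
        rw [e]
        exact Submodule.smul_mem_smul hz Submodule.mem_top
      · intro u v hu hv
        rw [smul_add]
        exact Submodule.add_mem _ hu hv
  · intro hx
    refine Submodule.smul_induction_on hx ?_ ?_
    · intro z hz y _
      refine Submodule.subset_span ⟨z, y, hz, ?_⟩
      rw [algebraMap_smul]
    · intro u v hu hv
      exact Submodule.add_mem _ hu hv

variable {S : Type u} [Ring S] (φ : R →+* S) [IsRedMap Z φ]
  {K F M : Type u} [AddCommGroup K] [AddCommGroup F] [AddCommGroup M]
  [Module R K] [Module R F] [Module R M]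
  [Module Z K] [Module Z F] [Module Z M]
  [IsScalarTower Z R K] [IsScalarTower Z R F] [IsScalarTower Z R M]

/-- A `Z`-linear retraction of an `R`-linear injection with `Z`-free cokernel. -/
theorem exists_retraction_of_free [Module.Free Z M] (i : K →ₗ[R] F) (g : F →ₗ[R] M)
    (hi : Function.Injective i) (hg : Function.Surjective g) (hex : Function.Exact i g) :
    ∃ ρ : F →ₗ[Z] K, ∀ x, ρ (i x) = x := by
  have hexZ : Function.Exact (i.restrictScalars Z) (g.restrictScalars Z) := hex
  obtain ⟨l, hl⟩ := Module.projective_lifting_property (g.restrictScalars Z) LinearMap.id hg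
  have h01 := (hexZ.split_tfae hi hg).out 0 1
  obtain ⟨ρ, hρ⟩ := h01.mp ⟨l, hl⟩
  exact ⟨ρ, fun x => LinearMap.congr_fun hρ x⟩

/-- If the end term is free over `Z`, the kernel is projective over `Z`, hence free when finite. -/
theorem free_ker [Module.Free Z F] [Module.Finite Z F] [Module.Free Z M] [Module.Finite Z K]
    (i : K →ₗ[R] F) (g : F →ₗ[R] M)
    (hi : Function.Injective i) (hg : Function.Surjective g) (hex : Function.Exact i g) :
    Module.Free Z K := by
  obtain ⟨ρ, hρ⟩ := exists_retraction_of_free (Z := Z) i g hi hg hex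
  have hP : Module.Projective Z K :=
    Module.Projective.of_split (i.restrictScalars Z) ρ (LinearMap.ext hρ)
  exact Module.free_of_flat_of_isLocalRing

/-- If the end term is free over `Z`, reduction modulo the maximal ideal preserves exactness. -/
theorem red_exact [Module.Free Z M] (i : K →ₗ[R] F) (g : F →ₗ[R] M)
    (hi : Function.Injective i) (hg : Function.Surjective g) (hex : Function.Exact i g) :
    Function.Injective (redMap Z φ i) ∧ Function.Surjective (redMap Z φ g) ∧
      Function.Exact (redMap Z φ i) (redMap Z φ g) := by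
  refine ⟨?_, ?_, ?_⟩
  · obtain ⟨ρ, hρ⟩ := exists_retraction_of_free (Z := Z) i g hi hg hex
    refine (injective_iff_map_eq_zero _).2 fun y hy => ?_
    obtain ⟨x, rfl⟩ := mk_surjective Z φ y
    rw [redMap_mk, mk_eq_zero_iff, mem_mSub_iff (Z := Z) (R := R)] at hy
    rw [mk_eq_zero_iff, mem_mSub_iff (Z := Z) (R := R)]
    have h1 : ρ (i x) ∈ (maximalIdeal Z) • (⊤ : Submodule Z K) := by
      refine Submodule.smul_induction_on hy ?_ ?_
      · intro z hz y _
        rw [map_smul]
        exact Submodule.smul_mem_smul hz Submodule.mem_top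
      · intro u v hu hv
        rw [map_add]
        exact Submodule.add_mem _ hu hv
    rwa [hρ] at h1
  · intro y
    obtain ⟨x, rfl⟩ := mk_surjective Z φ y
    obtain ⟨w, rfl⟩ := hg x
    exact ⟨mk Z φ F w, redMap_mk Z φ g w⟩
  · intro y
    obtain ⟨x, rfl⟩ := mk_surjective Z φ y
    constructor
    · intro hy
      rw [redMap_mk, mk_eq_zero_iff, mem_mSub_iff (Z := Z) (R := R)] at hy
      -- lift to `m F`
      have hlift : ∀ t ∈ (maximalIdeal Z) • (⊤ : Submodule Z M),
          ∃ w ∈ (maximalIdeal Z) • (⊤ : Submodule Z F), g w = t := by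
        intro t ht
        refine Submodule.smul_induction_on ht ?_ ?_
        · intro z hz y _
          obtain ⟨u, rfl⟩ := hg y
          refine ⟨z • u, Submodule.smul_mem_smul hz Submodule.mem_top, ?_⟩
          exact (g.restrictScalars Z).map_smul z u
        · rintro u v ⟨w₁, hw₁, rfl⟩ ⟨w₂, hw₂, rfl⟩
          exact ⟨w₁ + w₂, Submodule.add_mem _ hw₁ hw₂, map_add _ _ _⟩
      obtain ⟨w, hw, hgw⟩ := hlift _ hy
      have hk : g (x - w) = 0 := by rw [map_sub, hgw, sub_self]
      obtain ⟨u, hu⟩ := (hex (x - w)).mp hk
      refine ⟨mk Z φ K u, ?_⟩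
      rw [redMap_mk, hu, map_sub, sub_eq_self, mk_eq_zero_iff, mem_mSub_iff (Z := Z) (R := R)]
      exact hw
    · rintro ⟨v, hv⟩
      obtain ⟨u, rfl⟩ := mk_surjective Z φ v
      rw [← hv, redMap_mk, redMap_mk, (hex (i u)).mpr ⟨u, rfl⟩, map_zero]

end

end Vale.Agent.Lib.P176.F
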