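import Vale.Agent.Lib.P176.F.Proj
import Vale.Agent.Lib.P176.Syzy

namespace Vale.Agent.Lib.P176.F

open IsLocalRing CategoryTheory Vale.Agent.Lib.P176

universe u w

variable {Z : Type w} {R : Type u} [CommRing Z] [IsLocalRing Z] [IsArtinianRing Z] [Ring R]
  [Algebra Z R] [Module.Free Z R] [Module.Finite Z R]
  {S : Type u} [Ring S] (φ : R →+* S) [IsRedMap Z φ]

/-- A finitely generated module of projective dimension at most `t` over `R` is free over `Z` and
its reduction has projective dimension at most `t` over `S`. -/
theorem pd_red : ∀ (t : ℕ) (M : Type u) [AddCommGroup M] [Module R M] [Module Z M]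
    [IsScalarTower Z R M] [Module.Finite R M],
    HasProjectiveDimensionLE (ModuleCat.of R M) t →
      Module.Free Z M ∧ HasProjectiveDimensionLE (ModuleCat.of S (Red Z φ M)) t := by
  intro t
  induction t with
  | zero =>
    intro M _ _ _ _ _ h
    have hP' : Projective (ModuleCat.of R M) := projective_iff_hasProjectiveDimensionLT_one.2 h
    have hP : Module.Projective R M := (_root_.IsProjective.iff_projective (R := R) (ModuleCat.of R M)).mpr hP'
    have hfree : Module.Free Z M := free_of_projective (Z := Z) (R := R)
    have hred : Module.Projective S (Red Z φ M) := red_projective (Z := Z) φ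
    refine ⟨hfree, ?_⟩
    have hred' : Projective (ModuleCat.of S (Red Z φ M)) :=
      (_root_.IsProjective.iff_projective (R := S) (ModuleCat.of S (Red Z φ M))).mp hred
    exact projective_iff_hasProjectiveDimensionLT_one.1 hred'
  | succ t ih =>
    intro M _ _ _ _ _ h
    obtain ⟨r, p, hp⟩ := Module.Finite.exists_fin' R M
    let K : Submodule R (Fin r → R) := LinearMap.ker p
    have hex : Function.Exact K.subtype p := by
      intro x
      constructor
      · intro hx
        exact ⟨⟨x, hx⟩, rfl⟩
      · rintro ⟨y, rfl⟩
        exact y.2
    have hi : Function.Injective K.subtype := K.injective_subtype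
    have hFP : Module.Projective R (Fin r → R) := inferInstance
    have hKt : HasProjectiveDimensionLE (ModuleCat.of R K) t :=
      pd_down (K := ModuleCat.of R K) (P := ModuleCat.of R (Fin r → R)) (K' := ModuleCat.of R M)
        K.subtype p hFP hi hp hex t h
    have hKfinZ : Module.Finite Z K := by
      have : Module.Finite Z (Fin r → R) := inferInstance
      have hN : IsNoetherian Z (Fin r → R) := isNoetherian_of_isNoetherianRing_of_finite Z _
      let KZ : Submodule Z (Fin r → R) := K.restrictScalars Z
      have : Module.Finite Z KZ := inferInstance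
      exact this
    have hKfin : Module.Finite R K := Module.Finite.of_restrictScalars_finite Z R K
    obtain ⟨hKfree, hKred⟩ := ih K hKt
    have hMfree : Module.Free Z M :=
      free_quot (K.subtype.restrictScalars Z) (p.restrictScalars Z) hi hp hex
    refine ⟨hMfree, ?_⟩
    obtain ⟨hi', hp', hex'⟩ := red_exact (Z := Z) φ K.subtype p hi hp hex
    have hFr : Module.Projective S (Red Z φ (Fin r → R)) := red_pi_projective (Z := Z) φ r
    exact pd_up (K := ModuleCat.of S (Red Z φ K)) (P := ModuleCat.of S (Red Z φ (Fin r → R)))
      (K' := ModuleCat.of S (Red Z φ M)) (redMap Z φ K.subtype) (redMap Z φ p) hFr hi' hp' hex' t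
      hKred

/-- If `M` is free over `Z` and its reduction has projective dimension at most `N` over `S`, then
`M` has projective dimension at most `N` over `R`. -/
theorem pd_of_red : ∀ (N : ℕ) (M : Type u) [AddCommGroup M] [Module R M] [Module Z M]
    [IsScalarTower Z R M] [Module.Free Z M] [Module.Finite R M],
    HasProjectiveDimensionLE (ModuleCat.of S (Red Z φ M)) N →
      HasProjectiveDimensionLE (ModuleCat.of R M) N := by
  intro N
  induction N with
  | zero =>
    intro M _ _ _ _ _ _ h
    have h1 : Projective (ModuleCat.of S (Red Z φ M)) :=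
      (projective_iff_hasProjectiveDimensionLE_zero _).2 h
    have h2 : Module.Projective S (Red Z φ M) :=
      (_root_.IsProjective.iff_projective (R := S) (ModuleCat.of S (Red Z φ M))).2 h1
    have h3 : Module.Projective R M := proj_of_red_proj (Z := Z) φ h2
    have h4 : Projective (ModuleCat.of R M) :=
      (_root_.IsProjective.iff_projective (R := R) (ModuleCat.of R M)).1 h3
    exact (projective_iff_hasProjectiveDimensionLE_zero _).1 h4
  | succ N ih =>
    intro M _ _ _ _ _ _ h
    obtain ⟨r, g, hg⟩ := Module.Finite.exists_fin' R M
    let K : Submodule R (Fin r → R) := LinearMap.ker g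
    have hNZ : IsNoetherian Z (Fin r → R) := isNoetherian_of_isNoetherianRing_of_finite Z _
    have hNR : IsNoetherian R (Fin r → R) := isNoetherian_of_tower Z hNZ
    have hKfR : Module.Finite R K := Module.Finite.of_fg (IsNoetherian.noetherian K)
    have hKfZ : Module.Finite Z K :=
      Module.Finite.of_fg (IsNoetherian.noetherian (K.restrictScalars Z))
    have hi : Function.Injective K.subtype := K.injective_subtype
    have hex : Function.Exact K.subtype g := LinearMap.exact_subtype_ker_map g
    have hKfree : Module.Free Z K := free_ker K.subtype g hi hg hex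
    obtain ⟨hr1, hr2, hr3⟩ := red_exact (Z := Z) φ K.subtype g hi hg hex
    have hdown : HasProjectiveDimensionLE (ModuleCat.of S (Red Z φ K)) N :=
      pd_down (K := ModuleCat.of S (Red Z φ K)) (P := ModuleCat.of S (Red Z φ (Fin r → R)))
        (K' := ModuleCat.of S (Red Z φ M)) (redMap Z φ K.subtype) (redMap Z φ g)
        (red_pi_projective φ r) hr1 hr2 hr3 N h
    have hK : HasProjectiveDimensionLE (ModuleCat.of R K) N := ih K hdown
    exact pd_up (K := ModuleCat.of R K) (P := ModuleCat.of R (Fin r → R))
      (K' := ModuleCat.of R M) K.subtype g inferInstance hi hg hex N hK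

variable (Z) in
include Z φ in
/-- The little finitistic dimension of `R` is at most that of `S = R / m R`, when `R` is finite and
free over a central commutative artinian local subring `Z` with maximal ideal `m`. -/
theorem findim_le (N0 : ℕ)
    (h : ∀ X : ModuleCat.{u} S, Module.Finite S X → (∃ t : ℕ, HasProjectiveDimensionLE X t) →
      HasProjectiveDimensionLE X N0) :
    ∀ M : ModuleCat.{u} R, Module.Finite R M → (∃ t : ℕ, HasProjectiveDimensionLE M t) →
      HasProjectiveDimensionLE M N0 := by
  classical
  intro M hfin ⟨t, ht⟩
  let _ : Module Z M := Module.compHom M (algebraMap Z R)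
  have _ : IsScalarTower Z R M := IsScalarTower.of_algebraMap_smul (fun _ _ => rfl)
  have hM : HasProjectiveDimensionLE (ModuleCat.of R M) t := ht
  obtain ⟨hfree, hred⟩ := pd_red (Z := Z) φ t M hM
  have hfinS : Module.Finite S (Red Z φ M) := by
    obtain ⟨s, hs⟩ := Module.finite_def.1 hfin
    refine ⟨⟨s.image (mk Z φ M), ?_⟩⟩
    rw [eq_top_iff]
    rintro x -
    obtain ⟨y, rfl⟩ := mk_surjective Z φ x
    have hy : y ∈ Submodule.span R (s : Set M) := by rw [hs]; trivial
    induction hy using Submodule.span_induction with
    | mem a ha =>
      apply Submodule.subset_span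
      simpa using ⟨a, ha, rfl⟩
    | zero => rw [map_zero]; exact zero_mem _
    | add a b _ _ ha hb => rw [map_add]; exact add_mem ha hb
    | smul r a _ ha =>
      rw [map_smul, ← phi_smul Z φ r]
      exact Submodule.smul_mem _ _ ha
  have hS := h (ModuleCat.of S (Red Z φ M)) hfinS ⟨t, hred⟩
  exact pd_of_red (Z := Z) φ N0 M hS

end Vale.Agent.Lib.P176.F
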