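import Vale.Agent.Lib.P176.F.Lin

namespace Vale.Agent.Lib.P176.F

open IsLocalRing

universe u w

variable {Z : Type w} {R : Type u} [CommRing Z] [IsLocalRing Z] [IsArtinianRing Z] [Ring R]
  [Algebra Z R] [Module.Free Z R] [Module.Finite Z R]
  {S : Type u} [Ring S] (φ : R →+* S) [IsRedMap Z φ]

/-- The coordinates of an element of `m R^r` lie in `m R`. -/
theorem mSub_pi_coord {r : ℕ} {x : Fin r → R} (hx : x ∈ mSub Z R (Fin r → R)) (j : Fin r) :
    x j ∈ mSub Z R R := by
  induction hx using Submodule.span_induction with
  | mem a ha =>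
    obtain ⟨z, y, hz, rfl⟩ := ha
    exact Submodule.subset_span ⟨z, y j, hz, rfl⟩
  | zero => exact Submodule.zero_mem _
  | add a b _ _ ha hb => exact Submodule.add_mem _ ha hb
  | smul a b _ hb => exact Submodule.smul_mem _ a hb

/-- The reduction of a finite free `R`-module is projective over `S`. -/
theorem red_pi_projective (r : ℕ) : Module.Projective S (Red Z φ (Fin r → R)) := by
  classical
  let v : Fin r → Red Z φ (Fin r → R) := fun j => mk Z φ _ (Pi.single j 1)
  let B : (Fin r → S) →ₗ[S] Red Z φ (Fin r → R) := Fintype.linearCombination S v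
  have hsum : ∀ x : Fin r → R, B (fun j => φ (x j)) = mk Z φ _ x := by
    intro x
    simp only [B, Fintype.linearCombination_apply]
    have hx : x = ∑ j, x j • Pi.single j (1 : R) := by
      ext i
      simp [Finset.sum_apply, Pi.single_apply]
    conv_rhs => rw [hx, map_sum]
    refine Finset.sum_congr rfl fun j _ => ?_
    rw [phi_smul, map_smul]
  have hsurj : Function.Surjective B := by
    intro y
    obtain ⟨x, rfl⟩ := mk_surjective Z φ y
    exact ⟨_, hsum x⟩
  have hinj : Function.Injective B := by
    rw [injective_iff_map_eq_zero]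
    intro s hs
    choose x hx using fun j => (IsRedMap.surj (Z := Z) (φ := φ)) (s j)
    have hs' : s = fun j => φ (x j) := by
      ext j
      exact (hx j).symm
    rw [hs', hsum, mk_eq_zero_iff] at hs
    rw [hs']
    funext j
    exact (IsRedMap.ker (Z := Z) (φ := φ) _).2 (mSub_pi_coord hs j)
  exact Module.Projective.of_equiv (LinearEquiv.ofBijective B ⟨hinj, hsurj⟩)

variable {M : Type u} [AddCommGroup M] [Module R M] [Module Z M] [IsScalarTower Z R M]

/-- A finitely generated projective `R`-module is free over `Z`. -/
theorem free_of_projective [Module.Projective R M] [Module.Finite R M] : Module.Free Z M := by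
  obtain ⟨n, f, hf⟩ := Module.Finite.exists_fin' R M
  obtain ⟨h, hh⟩ := Module.projective_lifting_property f LinearMap.id hf
  have hP : Module.Projective Z M := by
    refine Module.Projective.of_split (h.restrictScalars Z) (f.restrictScalars Z) ?_
    ext x
    exact LinearMap.congr_fun hh x
  have hF : Module.Finite Z M := Module.Finite.trans R M
  exact Module.free_of_flat_of_isLocalRing

/-- The reduction of a finitely generated projective `R`-module is projective over `S`. -/
theorem red_projective [Module.Projective R M] [Module.Finite R M] :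
    Module.Projective S (Red Z φ M) := by
  obtain ⟨n, f, hf⟩ := Module.Finite.exists_fin' R M
  obtain ⟨h, hh⟩ := Module.projective_lifting_property f LinearMap.id hf
  have hsplit : redMap Z φ f ∘ₗ redMap Z φ h = LinearMap.id := by
    rw [← redMap_comp, hh, redMap_id]
  have hP : Module.Projective S (Red Z φ (Fin n → R)) := red_pi_projective φ n
  exact Module.Projective.of_split (redMap Z φ h) (redMap Z φ f) hsplit

omit [Module.Free Z R] [Module.Finite Z R] in
/-- An endomorphism congruent to the identity modulo `m K` is a unit. -/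
theorem isUnit_of_sub_mem_mSub {K : Type u} [AddCommGroup K] [Module R K] [Module Z K]
    [IsScalarTower Z R K] (u : Module.End R K) (hu : ∀ x, u x - x ∈ mSub Z R K) : IsUnit u := by
  set I : Ideal Z := maximalIdeal Z with hI
  obtain ⟨c, hc⟩ : ∃ c, I ^ c = 0 := by
    have h0 : IsNilpotent (Ideal.jacobson (⊥ : Ideal Z)) := IsArtinianRing.isNilpotent_jacobson_bot
    rw [IsLocalRing.jacobson_eq_maximalIdeal _ bot_ne_top] at h0
    exact h0
  set n : Module.End R K := u - 1 with hn
  have hnx : ∀ x, n x ∈ I • (⊤ : Submodule Z K) := by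
    intro x
    have := hu x
    rw [mem_mSub_iff] at this
    simpa [hn, LinearMap.sub_apply] using this
  have hpow : ∀ a : ℕ, ∀ x, (n ^ a) x ∈ (I ^ a) • (⊤ : Submodule Z K) := by
    intro a
    induction a with
    | zero => intro x; simp
    | succ a ih =>
      intro x
      have hE : (n ^ (a + 1)) x = n ((n ^ a) x) := by
        rw [pow_succ' n a]; rfl
      rw [hE, pow_succ I a]
      have h1 := ih x
      have hmem : n ((n ^ a) x) ∈ (I ^ a * I) • (⊤ : Submodule Z K) := by
        refine Submodule.smul_induction_on h1 ?_ ?_
        · intro z hz y _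
          rw [LinearMap.map_smul_of_tower, mul_smul]
          exact Submodule.smul_mem_smul hz (hnx y)
        · intro p q hp hq
          rw [map_add]
          exact add_mem hp hq
      exact hmem
  have hnil : IsNilpotent n := by
    refine ⟨c, ?_⟩
    ext x
    have := hpow c x
    rw [hc] at this
    simpa using this
  have : u = n + 1 := by simp [hn]
  rw [this]
  exact hnil.isUnit_add_one

/-- If `M` is free over `Z` and `M / m M` is projective over `S`, then `M` is projective over `R`:
a retraction modulo `m` lifts, and its composition with the inclusion is unipotent. -/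
theorem proj_of_red_proj [Module.Free Z M] [Module.Finite R M]
    (h : Module.Projective S (Red Z φ M)) : Module.Projective R M := by
  classical
  obtain ⟨r, g, hg⟩ := Module.Finite.exists_fin' R M
  let K : Submodule R (Fin r → R) := LinearMap.ker g
  let i : K →ₗ[R] (Fin r → R) := K.subtype
  have hi : Function.Injective i := K.injective_subtype
  have hex : Function.Exact i g := by
    intro x
    constructor
    · intro hx
      exact ⟨⟨x, hx⟩, rfl⟩
    · rintro ⟨y, rfl⟩
      exact y.2
  obtain ⟨h1, h2, h3⟩ := red_exact (Z := Z) φ i g hi hg hex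
  obtain ⟨s, hs⟩ := Module.projective_lifting_property (redMap Z φ g) LinearMap.id h2
  have tf1 := Function.Exact.split_tfae h3 h1 h2
  have tf2 := tf1.out 0 1
  obtain ⟨rb, hrb⟩ := tf2.mp ⟨s, hs⟩
  -- the retraction as an `R`-linear map
  let rbR : Red Z φ (Fin r → R) →ₗ[R] Red Z φ K :=
    { toFun := rb
      map_add' := map_add rb
      map_smul' := by
        intro a x
        simp only [RingHom.id_apply]
        rw [← phi_smul (Z := Z) φ a x, map_smul, phi_smul (Z := Z) φ a] }
  obtain ⟨l, hl⟩ := Module.projective_lifting_property (mk Z φ K) (rbR ∘ₗ mk Z φ (Fin r → R))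
    (mk_surjective Z φ)
  have hu : ∀ x, (l ∘ₗ i) x - x ∈ mSub Z R K := by
    intro x
    rw [← mk_eq_zero_iff Z φ, map_sub, sub_eq_zero]
    have h4 := LinearMap.congr_fun hl (i x)
    simp only [LinearMap.comp_apply] at h4 ⊢
    rw [h4]
    have h5 := LinearMap.congr_fun hrb (mk Z φ K x)
    simp only [LinearMap.comp_apply, LinearMap.id_apply] at h5
    rw [redMap_mk] at h5
    exact h5
  obtain ⟨v, hv⟩ := (isUnit_of_sub_mem_mSub (Z := Z) (l ∘ₗ i) hu).exists_left_inv
  have hret : ((v ∘ₗ l) ∘ₗ i) = LinearMap.id := hv
  have tf3 := Function.Exact.split_tfae hex hi hg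
  have tf4 := tf3.out 0 1
  obtain ⟨t, ht⟩ := tf4.mpr ⟨v ∘ₗ l, hret⟩
  exact Module.Projective.of_split t g ht

end Vale.Agent.Lib.P176.F
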